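import Vale.Agent.P129.H570.Classes
import Vale.Agent.P129.H630.B1
import Vale.Agent.P129.H449.Compact
import Vale.Agent.P129.H200.ZSeq
import Vale.Agent.P129.H487.Ap

/-!
P129, part G: the hits lemma.
-/

open Finset Filter Topology

namespace Vale.Agent.P129.H570

open Vale.Agent.P129.H448
open Vale.Agent.P129.H853 (Coded dom code)

variable {z : ℕ → Vec} {a b : ℕ → ℕ} {ε : ℝ}

/-! ### The estimate (C) -/

open Classical in
theorem cBound_of_nrm (hn : ∀ i, nrm (z i) ≤ 2) : CBound z a b := by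
  intro i t ht Φ n hΦ hdisj
  let e := t.orderEmbOfFin (rfl : t.card = t.card)
  let g : ℕ → ℕ := fun r => if h : r < t.card then e ⟨r, h⟩ else 0
  have hg : ∀ r (h : r < t.card), g r = e ⟨r, h⟩ := fun r h => dif_pos h
  have hgt : ∀ r < t.card, g r ∈ t := fun r h => by
    rw [hg r h]; exact Finset.orderEmbOfFin_mem t rfl _
  have hginj : ∀ r < t.card, ∀ r' < t.card, r ≠ r' → g r ≠ g r' := by
    intro r h r' h' hne he
    rw [hg r h, hg r' h'] at he
    have := e.injective he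
    exact hne (by simpa using this)
  let s : ℕ → Seg := fun r => ⟨Φ (g r), n (g r), Set.Ioc (a i) (b i), Set.univ⟩
  have hact : ∀ r, ap (s r).fn (z i) = act (Φ (g r)) (n (g r)) (a i) (b i) (z i) := fun r => rfl
  let sg : ℕ → ℚ := fun r => if 0 ≤ ap (s r).fn (z i) then 1 else -1
  have hadm : Adm K 0 t.card s sg :=
    { ok := fun r hr => ⟨hΦ _ (hgt r hr), Set.ordConnected_Ioc, Set.ordConnected_univ⟩
      sign := fun r _ => by
        by_cases h : 0 ≤ ap (s r).fn (z i)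
        · left; exact if_pos h
        · right; exact if_neg h
      disj := fun r hr r' hr' hne => by
        rw [Finset.disjoint_left]
        intro w hw hw'
        obtain ⟨k, hk, hkJ, rfl⟩ := B.mem_idx.1 hw
        obtain ⟨k', hk', -, he⟩ := B.mem_idx.1 hw'
        exact hdisj _ (hgt r hr) _ (hgt r' hr') (hginj r hr r' hr' hne) k hk k' hk' hkJ.1 hkJ.2
          he.symm
      card := fun r hr w hw => by
        obtain ⟨k, hk, hkJ, rfl⟩ := B.mem_idx.1 hw
        have := hkJ.1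
        omega
      low := fun _ _ _ _ => Nat.zero_le _ }
  have hmem : (∑ r ∈ range t.card, sg r • (s r).fn) ∈ K :=
    B.Sums_subset_K 0 ⟨_, _, _, hadm, rfl⟩
  have h1 : ap (∑ r ∈ range t.card, sg r • (s r).fn) (z i) =
      ∑ r ∈ range t.card, |act (Φ (g r)) (n (g r)) (a i) (b i) (z i)| := by
    rw [ap_sum_left]
    refine Finset.sum_congr rfl fun r _ => ?_
    rw [ap_smul_left, hact r]
    by_cases h : 0 ≤ ap (s r).fn (z i)
    · rw [show sg r = 1 from if_pos h, abs_of_nonneg (by rwa [hact r] at h)]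
      simp
    · rw [show sg r = -1 from if_neg h, abs_of_neg (by rw [hact r] at h; exact not_le.1 h)]
      simp
  have h2 : ∑ r ∈ t, |act (Φ r) (n r) (a i) (b i) (z i)| =
      ∑ r ∈ range t.card, |act (Φ (g r)) (n (g r)) (a i) (b i) (z i)| := by
    have himg : t = (range t.card).image g := by
      symm
      refine Finset.eq_of_subset_of_card_le ?_ ?_
      · intro x hx
        obtain ⟨r, hr, rfl⟩ := Finset.mem_image.1 hx
        exact hgt r (Finset.mem_range.1 hr)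
      · rw [Finset.card_image_of_injOn, Finset.card_range]
        intro r hr r' hr' he
        by_contra hne
        exact hginj r (Finset.mem_range.1 hr) r' (Finset.mem_range.1 hr') hne he
    conv_lhs => rw [himg]
    rw [Finset.sum_image]
    intro r hr r' hr' he
    by_contra hne
    exact hginj r (Finset.mem_range.1 hr) r' (Finset.mem_range.1 hr') hne he
  rw [h2, ← h1]
  exact (le_abs_self _).trans ((H487.abs_ap_le_nrm hmem _).trans (hn i))

/-! ### Limits of representatives -/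

/-- Only finitely many vectors are hit by almost all members of a sequence of special sequences. -/
theorem limit_finite (U : Ultrafilter ℕ) (hW : Windows a b) (hε : 0 < ε)
    (hbr : ∀ Φ, IsInf Φ → Tendsto (fun i => act Φ (b i + 1) (a i) (b i) (z i)) atTop (𝓝 0))
    (Ψ : ℕ → ℕ → Node) (N : ℕ → ℕ) (hsp : ∀ i, IsSpecial K (Ψ i) (N i)) :
    {i0 | ∀ᶠ i in U, Hit z a b ε (Ψ i) (N i) i0}.Finite := by
  by_contra hinf
  obtain ⟨Φ, hΦ⟩ := H449.compactness F_coherent U Ψ N (Eventually.of_forall fun i => (hsp i).cod)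
    (fun i => (z i).support) a b hW.ab hW.ba {i0 | ∀ᶠ i in U, Hit z a b ε (Ψ i) (N i) i0} hinf
    (fun i0 hi0 => hi0.mono fun i hi => hi.exists_node hε)
  have hInf : IsInf Φ := by
    intro n
    obtain ⟨i, hi1, hi2⟩ := (hΦ n).exists
    refine ⟨((hsp i).cod.mono hi1).congr fun j hj => hi2 j hj, fun k hk => ?_⟩
    rw [← hi2 k hk]
    exact (hsp i).wtd k (by omega)
  have hbig : ∀ i0 ∈ {i0 | ∀ᶠ i in U, Hit z a b ε (Ψ i) (N i) i0},
      ε ≤ |act Φ (b i0 + 1) (a i0) (b i0) (z i0)| := by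
    intro i0 hi0
    obtain ⟨i, hi, hi1, hi2⟩ := (hi0.and (hΦ (b i0 + 1))).exists
    have he : act (Ψ i) (N i) (a i0) (b i0) (z i0) = act Φ (b i0 + 1) (a i0) (b i0) (z i0) := by
      refine act_congr (K := b i0 + 1) hi1 le_rfl ?_ ?_ ?_ ?_
      · intro k hk hbk hwin
        have := (hsp i).cod.le_w hk
        omega
      · intro k hk hbk
        omega
      · intro k hk
        rw [hi2 k hk]
      · intro k hk c _
        rw [hi2 k hk]
    rw [← he]
    exact hi
  obtain ⟨i1, hi1⟩ := (Metric.tendsto_atTop.1 (hbr Φ hInf)) ε hε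
  obtain ⟨i0, hi0, hlt⟩ := Set.Infinite.exists_gt hinf i1
  have h1 := hi1 i0 hlt.le
  rw [Real.dist_eq, sub_zero] at h1
  exact absurd (hbig i0 hi0) (not_le.2 h1)

/-- Diagonal subsequence. -/
theorem exists_diag (U : Ultrafilter ℕ) (hU : ∀ i0 : ℕ, ∀ᶠ i in U, i0 < i) (R : ℕ)
    (P : ℕ → ℕ → ℕ → Prop) (hfin : ∀ r < R, {i0 | ∀ᶠ i in U, P r i i0}.Finite) (M : ℕ) :
    ∃ ν : ℕ → ℕ, StrictMono ν ∧ (∀ k, M ≤ ν k) ∧ ∀ r < R, ∀ j k, j < k → ¬ P r (ν k) (ν j) := by
  classical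
  have hfin' : (⋃ r ∈ Set.Iio R, {i0 | ∀ᶠ i in U, P r i i0}).Finite :=
    Set.Finite.biUnion (Set.finite_Iio R) fun r hr => hfin r hr
  obtain ⟨B, hB⟩ := hfin'.bddAbove
  have hB' : ∀ r < R, ∀ i0, B < i0 → ∀ᶠ i in U, ¬ P r i i0 := by
    intro r hr i0 hi0
    rw [Ultrafilter.eventually_not]
    intro h
    exact absurd (hB (Set.mem_biUnion (Set.mem_Iio.2 hr) h)) (not_le.2 hi0)
  have hstep : ∀ n : ℕ, ∃ i, n < i ∧ ∀ r < R, ∀ i0 ≤ n, B < i0 → ¬ P r i i0 := by
    intro n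
    have h1 : ∀ᶠ i in U, ∀ r ∈ Set.Iio R, ∀ i0 ∈ Set.Iic n, B < i0 → ¬ P r i i0 := by
      rw [eventually_all_finite (Set.finite_Iio R)]
      intro r hr
      rw [eventually_all_finite (Set.finite_Iic n)]
      intro i0 _
      by_cases h : B < i0
      · exact (hB' r hr i0 h).mono fun i hi _ => hi
      · exact Eventually.of_forall fun i hi => absurd hi h
    obtain ⟨i, hi1, hi2⟩ := (h1.and (hU n)).exists
    exact ⟨i, hi2, fun r hr i0 hi0 hB0 => hi1 r hr i0 hi0 hB0⟩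
  choose f hf1 hf2 using hstep
  let ν : ℕ → ℕ := fun k => Nat.rec (f (max B M)) (fun _ x => f x) k
  have hν : ∀ k, ν (k + 1) = f (ν k) := fun k => rfl
  have hmono : StrictMono ν := strictMono_nat_of_lt_succ fun k => by
    rw [hν]; exact hf1 _
  have h0 : max B M < ν 0 := hf1 _
  have hge : ∀ k, max B M < ν k := fun k => h0.trans_le (hmono.monotone (Nat.zero_le k))
  refine ⟨ν, hmono, fun k => (le_max_right B M).trans (hge k).le, ?_⟩
  intro r hr j k hjk
  obtain ⟨k, rfl⟩ : ∃ k', k = k' + 1 := ⟨k - 1, by omega⟩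
  rw [hν]
  exact hf2 _ r hr _ (hmono.monotone (by omega)) ((le_max_left B M).trans_lt (hge j))

/-! ### Few hits on a subsequence -/

theorem card_le_three {P : ℕ → Prop}
    (h : ∀ k0 k1 k2 k3, k0 < k1 → k1 < k2 → k2 < k3 → P k0 → P k1 → P k2 → P k3 → False)
    (S : Finset ℕ) (hS : ∀ k ∈ S, P k) : S.card ≤ 3 := by
  by_contra hcon
  push Not at hcon
  obtain ⟨t, htS, htc⟩ := Finset.exists_subset_card_eq (show 4 ≤ S.card by omega)
  have hm : ∀ i : Fin 4, P (t.orderEmbOfFin htc i) := fun i =>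
    hS _ (htS (Finset.orderEmbOfFin_mem t htc i))
  have hlt : ∀ i j : Fin 4, i < j → t.orderEmbOfFin htc i < t.orderEmbOfFin htc j :=
    fun i j hij => (t.orderEmbOfFin htc).strictMono hij
  exact h _ _ _ _ (hlt 0 1 (by decide)) (hlt 1 2 (by decide)) (hlt 2 3 (by decide))
    (hm 0) (hm 1) (hm 2) (hm 3)

theorem card_le_two {P : ℕ → Prop} (h : ∀ k0 k1 k2, k0 < k1 → k1 < k2 → P k0 → P k1 → P k2 → False)
    (S : Finset ℕ) (hS : ∀ k ∈ S, P k) : S.card ≤ 2 := by
  by_contra hcon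
  push Not at hcon
  obtain ⟨t, htS, htc⟩ := Finset.exists_subset_card_eq (show 3 ≤ S.card by omega)
  have hm : ∀ i : Fin 3, P (t.orderEmbOfFin htc i) := fun i =>
    hS _ (htS (Finset.orderEmbOfFin_mem t htc i))
  have hlt : ∀ i j : Fin 3, i < j → t.orderEmbOfFin htc i < t.orderEmbOfFin htc j :=
    fun i j hij => (t.orderEmbOfFin htc).strictMono hij
  exact h _ _ _ (hlt 0 1 (by decide)) (hlt 1 2 (by decide)) (hm 0) (hm 1) (hm 2)

/-- **Hits lemma**, for full initial parts of special sequences: on a subsequence, every special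
sequence hits at most three vectors. -/
theorem exists_subseq_hit {l : W} (hW : Windows a b) (ha : ∀ i, i ≤ a i) (hε : 0 < ε)
    (hs : ∀ i j, i < j → SLt (z i).support (z j).support)
    (hF : ∀ i, ∀ j < i, (z j).support ⊆ F (a i) l)
    (hC : CBound z a b)
    (hbr : ∀ Φ, IsInf Φ → Tendsto (fun i => act Φ (b i + 1) (a i) (b i) (z i)) atTop (𝓝 0)) :
    ∃ ν : ℕ → ℕ, StrictMono ν ∧ ∀ Φ n, IsSpecial K Φ n → ∀ S : Finset ℕ,
      (∀ k ∈ S, Hit z a b ε Φ n (ν k)) → S.card ≤ 3 := by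
  obtain ⟨R, hR⟩ := exists_nat_gt (2 / ε)
  have hR' : 2 < R * ε := (div_lt_iff₀ hε).1 hR
  obtain ⟨Ψ, N, hsp, hfam⟩ := exists_family hW hε hs hF hC hR'
  obtain ⟨ν, hν, hνM, hνP⟩ := exists_diag (hyperfilter ℕ)
    (fun i0 => by
      refine hyperfilter_le_cofinite ?_
      rw [Filter.mem_cofinite]
      refine (Set.finite_Iic i0).subset fun i hi => ?_
      rw [Set.mem_compl_iff, Set.mem_ofPred_eq, not_lt] at hi
      exact hi) R
    (fun r i i0 => Hit z a b ε (Ψ i r) (N i r) i0)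
    (fun r _ => limit_finite (hyperfilter ℕ) hW hε hbr (fun i => Ψ i r) (fun i => N i r)
      fun i => hsp i r) R
  refine ⟨ν, hν, fun Φ n hΦ S hS => card_le_three ?_ S hS⟩
  intro k0 k1 k2 k3 h01 h12 h23 H0 H1 H2 H3
  have hRa : R ≤ a (ν k3) + 1 := by
    have h1 := hνM k3
    have h2 := ha (ν k3)
    omega
  obtain ⟨r, hr, hr2⟩ := hfam (ν k3) hRa Φ n hΦ H3
  exact hνP r hr k0 k3 (by omega) (hr2 _ _ _ (hν h01) (hν h12) (hν h23) H0 H1 H2)

open Classical in
/-- The window part of a segment, outside of the exceptional cases. -/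
theorem win_eq {s : Seg} {A B : ℕ} {x : Vec} (hJ : Set.Ioc A B ⊆ s.J)
    (hI : ∀ c ∈ x.support, c ∈ s.I) : ap (H200.win s A B).fn x = act s.Φ s.n A B x := by
  rw [ap_seg_fn, act, ap_seg_fn]
  have h1 : (H200.win s A B).nodes = (Seg.nodes ⟨s.Φ, s.n, Set.Ioc A B, Set.univ⟩) := by
    ext k
    rw [Vale.Agent.P129.B.mem_nodes, Vale.Agent.P129.B.mem_nodes]
    show k < s.n ∧ (s.Φ k).w ∈ s.J ∩ Set.Ioc A B ↔ k < s.n ∧ (s.Φ k).w ∈ Set.Ioc A B
    rw [Set.inter_eq_self_of_subset_right hJ]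
  rw [h1]
  refine Finset.sum_congr rfl fun k _ => ap_congr fun c hc => ?_
  show res s.I (s.Φ k).φ c = res Set.univ (s.Φ k).φ c
  rw [res_apply, res_apply, if_pos (hI c hc), if_pos (Set.mem_univ _)]

open Classical in
theorem win_zero_J {s : Seg} {A B : ℕ} {x : Vec} (hJ : ∀ w ∈ Set.Ioc A B, w ∉ s.J) :
    ap (H200.win s A B).fn x = 0 := by
  rw [ap_seg_fn]
  refine Finset.sum_eq_zero fun k hk => ?_
  exfalso
  have h1 := (Vale.Agent.P129.B.mem_nodes.1 hk).2
  exact hJ _ h1.2 h1.1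

open Classical in
theorem win_zero_I {s : Seg} {A B : ℕ} {x : Vec} (hI : ∀ c ∈ x.support, c ∉ s.I) :
    ap (H200.win s A B).fn x = 0 := by
  rw [ap_seg_fn]
  refine Finset.sum_eq_zero fun k _ => ap_eq_zero fun c hc => ?_
  show res s.I (s.Φ k).φ c = 0
  rw [res_apply, if_neg (hI c hc)]

/-- **Hits lemma**, for segments. -/
theorem hits_of {l : W} (hW : Windows a b) (ha : ∀ i, i ≤ a i)
    (hs : ∀ i j, i < j → SLt (z i).support (z j).support)
    (hF : ∀ i, ∀ j < i, (z j).support ⊆ F (a i) l)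
    (hC : CBound z a b)
    (hbr : ∀ Φ, IsInf Φ → Tendsto (fun i => act Φ (b i + 1) (a i) (b i) (z i)) atTop (𝓝 0)) :
    H200.Hits z a b := by
  classical
  intro ε hε
  obtain ⟨ν, hν, h3⟩ := exists_subseq_hit hW ha hε hs hF hC hbr
  refine ⟨ν, hν, fun s hsK S hS => ?_⟩
  let S1 := S.filter fun k => Hit z a b ε s.Φ s.n (ν k)
  let S2 := S.filter fun k => (∃ w ∈ Set.Ioc (a (ν k)) (b (ν k)), w ∈ s.J) ∧
    ∃ w ∈ Set.Ioc (a (ν k)) (b (ν k)), w ∉ s.J
  let S3 := S.filter fun k => (∃ c ∈ (z (ν k)).support, c ∈ s.I) ∧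
    ∃ c ∈ (z (ν k)).support, c ∉ s.I
  have hsub : S ⊆ S1 ∪ S2 ∪ S3 := by
    intro k hk
    rw [Finset.mem_union, Finset.mem_union]
    by_cases h2 : k ∈ S2
    · exact Or.inl (Or.inr h2)
    by_cases h3 : k ∈ S3
    · exact Or.inr h3
    left; left
    have hbig := hS k hk
    refine Finset.mem_filter.2 ⟨hk, ?_⟩
    have hJ1 : ∃ w ∈ Set.Ioc (a (ν k)) (b (ν k)), w ∈ s.J := by
      by_contra hcon
      push Not at hcon
      rw [win_zero_J hcon, abs_zero] at hbig
      linarith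
    have hI1 : ∃ c ∈ (z (ν k)).support, c ∈ s.I := by
      by_contra hcon
      push Not at hcon
      rw [win_zero_I hcon, abs_zero] at hbig
      linarith
    have hJ2 : Set.Ioc (a (ν k)) (b (ν k)) ⊆ s.J := by
      intro w hw
      by_contra hcon
      exact h2 (Finset.mem_filter.2 ⟨hk, hJ1, w, hw, hcon⟩)
    have hI2 : ∀ c ∈ (z (ν k)).support, c ∈ s.I := by
      intro c hc
      by_contra hcon
      exact h3 (Finset.mem_filter.2 ⟨hk, hI1, c, hc, hcon⟩)
    rw [win_eq hJ2 hI2] at hbig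
    exact hbig
  have c1 : S1.card ≤ 3 := h3 s.Φ s.n hsK.sp S1 fun k hk => (Finset.mem_filter.1 hk).2
  have c2 : S2.card ≤ 2 := by
    refine card_le_two (P := fun k => (∃ w ∈ Set.Ioc (a (ν k)) (b (ν k)), w ∈ s.J) ∧
      ∃ w ∈ Set.Ioc (a (ν k)) (b (ν k)), w ∉ s.J) ?_ S2 fun k hk => (Finset.mem_filter.1 hk).2
    rintro k0 k1 k2 h01 h12 ⟨⟨x, hx, hxJ⟩, -⟩ ⟨-, w, hw, hwJ⟩ ⟨⟨y, hy, hyJ⟩, -⟩
    have e1 := hW.b_le (hν h01)
    have e2 := hW.b_le (hν h12)
    refine hwJ (hsK.hJ.out hxJ hyJ ⟨?_, ?_⟩)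
    · have := hx.2; have := hw.1; omega
    · have := hw.2; have := hy.1; omega
  have c3 : S3.card ≤ 2 := by
    refine card_le_two (P := fun k => (∃ c ∈ (z (ν k)).support, c ∈ s.I) ∧
      ∃ c ∈ (z (ν k)).support, c ∉ s.I) ?_ S3 fun k hk => (Finset.mem_filter.1 hk).2
    rintro k0 k1 k2 h01 h12 ⟨⟨x, hx, hxI⟩, -⟩ ⟨-, c, hc, hcI⟩ ⟨⟨y, hy, hyI⟩, -⟩
    exact hcI (hsK.hI.out hxI hyI ⟨(hs _ _ (hν h01) x hx c hc).le, (hs _ _ (hν h12) c hc y hy).le⟩)
  calc S.card ≤ (S1 ∪ S2 ∪ S3).card := Finset.card_le_card hsub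
    _ ≤ (S1 ∪ S2).card + S3.card := Finset.card_union_le _ _
    _ ≤ S1.card + S2.card + S3.card := by
        have := Finset.card_union_le S1 S2
        omega
    _ ≤ 7 := by omega

/-- **Hits lemma**, final form. -/
theorem hits {l : W} {h z : ℕ → Vec} {a b : ℕ → ℕ} (hz : H200.ZSeq l h z a b) :
    H200.Hits z a b := by
  have hW : Windows a b := ⟨fun i => (hz.ab i).le, hz.ba⟩
  have ha : ∀ i, i ≤ a i := by
    intro i
    induction i with
    | zero => exact Nat.zero_le _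
    | succ i ih =>
      have h1 := hz.ab i
      have h2 := hz.ba i
      omega
  refine hits_of (l := l) hW ha hz.succ ?_ (cBound_of_nrm hz.le_two) hz.null
  intro i j hij
  obtain ⟨i, rfl⟩ : ∃ i', i = i' + 1 := ⟨i - 1, by omega⟩
  exact hz.coh j i (by omega)

end Vale.Agent.P129.H570
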