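import Mathlib
import Vale.Agent.P129.H448.Defs

/-!
P129, part G (hits lemma), basic facts: the action of the nodes of a special sequence with weight
index in a window.
-/

open Finset Filter Topology

namespace Vale.Agent.P129.H570

open Vale.Agent.P129.H448
open Vale.Agent.P129.H853 (Coded dom code)

theorem ap_eq_sum (φ : Fn) (x : Vec) : ap φ x = ∑ c ∈ x.support, x c * (φ c : ℝ) := by
  simp only [ap, pr, Finsupp.linearCombination_apply, Finsupp.sum, toR, smul_eq_mul]

theorem ap_zero_left (x : Vec) : ap 0 x = 0 := by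
  rw [ap_eq_sum]
  refine Finset.sum_eq_zero fun c _ => by simp

theorem ap_add_left (φ ψ : Fn) (x : Vec) : ap (φ + ψ) x = ap φ x + ap ψ x := by
  rw [ap_eq_sum, ap_eq_sum, ap_eq_sum, ← Finset.sum_add_distrib]
  refine Finset.sum_congr rfl fun c _ => ?_
  rw [Finsupp.add_apply]
  push_cast
  ring

theorem ap_sum_left {ι : Type*} (t : Finset ι) (φ : ι → Fn) (x : Vec) :
    ap (∑ i ∈ t, φ i) x = ∑ i ∈ t, ap (φ i) x := by
  classical
  induction t using Finset.induction_on with
  | empty => simp [ap_zero_left]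
  | insert i t hi ih => rw [Finset.sum_insert hi, Finset.sum_insert hi, ap_add_left, ih]

theorem ap_smul_left (c : ℚ) (φ : Fn) (x : Vec) : ap (c • φ) x = (c : ℝ) * ap φ x := by
  rw [ap_eq_sum, ap_eq_sum, Finset.mul_sum]
  refine Finset.sum_congr rfl fun d _ => ?_
  rw [Finsupp.smul_apply, smul_eq_mul]
  push_cast
  ring

theorem ap_congr {φ ψ : Fn} {x : Vec} (h : ∀ c ∈ x.support, φ c = ψ c) : ap φ x = ap ψ x := by
  rw [ap_eq_sum, ap_eq_sum]
  exact Finset.sum_congr rfl fun c hc => by rw [h c hc]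

theorem ap_eq_zero {φ : Fn} {x : Vec} (h : ∀ c ∈ x.support, φ c = 0) : ap φ x = 0 := by
  rw [ap_eq_sum]
  exact Finset.sum_eq_zero fun c hc => by rw [h c hc]; simp

open Classical in
theorem res_apply {R : Type} [Zero R] (I : Set W) (x : W →₀ R) (c : W) :
    res I x c = if c ∈ I then x c else 0 := by
  rw [res, Finsupp.filter_apply]

/-- the action on `x` of the first `n` nodes of `Φ` with weight index in `(a, b]` -/
noncomputable def act (Φ : ℕ → Node) (n a b : ℕ) (x : Vec) : ℝ :=
  ap (Seg.fn ⟨Φ, n, Set.Ioc a b, Set.univ⟩) x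

open Classical in
theorem ap_seg_fn (s : Seg) (x : Vec) :
    ap s.fn x = ∑ k ∈ s.nodes, ap (res s.I (s.Φ k).φ) x := by
  have h : s.fn = ∑ k ∈ s.nodes, res s.I (s.Φ k).φ := by
    rw [Seg.fn]
    ext c
    rw [res_apply, Finsupp.finsetSum_apply, Finsupp.finsetSum_apply]
    by_cases hc : c ∈ s.I
    · rw [if_pos hc]
      refine Finset.sum_congr rfl fun k _ => ?_
      rw [res_apply, if_pos hc]
    · rw [if_neg hc]
      symm
      refine Finset.sum_eq_zero fun k _ => ?_
      rw [res_apply, if_neg hc]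
  rw [h, ap_sum_left]

open Classical in
theorem act_eq (Φ : ℕ → Node) (n a b : ℕ) (x : Vec) :
    act Φ n a b x =
      ∑ k ∈ (range n).filter (fun k => a < (Φ k).w ∧ (Φ k).w ≤ b), ap (Φ k).φ x := by
  rw [act, ap_seg_fn]
  have h1 : Seg.nodes ⟨Φ, n, Set.Ioc a b, Set.univ⟩ =
      (range n).filter (fun k => a < (Φ k).w ∧ (Φ k).w ≤ b) := by
    ext k
    simp [Seg.nodes]
  rw [h1]
  refine Finset.sum_congr rfl fun k _ => ap_congr fun c _ => ?_
  rw [res_apply, if_pos (Set.mem_univ _)]

/-- A hit is caused by a node with weight index in the window which meets the vector. -/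
theorem exists_node {Φ : ℕ → Node} {n a b : ℕ} {x : Vec} (h : act Φ n a b x ≠ 0) :
    ∃ k < n, a < (Φ k).w ∧ (Φ k).w ≤ b ∧ ∃ ξ ∈ (Φ k).φ.support, ξ ∈ x.support := by
  classical
  rw [act_eq] at h
  obtain ⟨k, hk, hne⟩ := Finset.exists_ne_zero_of_sum_ne_zero h
  rw [Finset.mem_filter, Finset.mem_range] at hk
  refine ⟨k, hk.1, hk.2.1, hk.2.2, ?_⟩
  by_contra hcon
  push Not at hcon
  refine hne (ap_eq_zero fun c hc => ?_)
  by_contra h0
  exact hcon c (Finsupp.mem_support_iff.2 h0) hc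

/-- The action depends only on the weights and on the values on the support of the vector of the
nodes with weight index in the window. -/
theorem act_congr {Φ Ψ : ℕ → Node} {n n' a b K : ℕ} {x : Vec}
    (hK : K ≤ n) (hK' : K ≤ n')
    (hn : ∀ k < n, K ≤ k → ¬ (a < (Φ k).w ∧ (Φ k).w ≤ b))
    (hn' : ∀ k < n', K ≤ k → ¬ (a < (Ψ k).w ∧ (Ψ k).w ≤ b))
    (hw : ∀ k < K, (Φ k).w = (Ψ k).w)
    (hφ : ∀ k < K, ∀ c ∈ x.support, (Φ k).φ c = (Ψ k).φ c) :
    act Φ n a b x = act Ψ n' a b x := by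
  classical
  rw [act_eq, act_eq]
  have h1 : (range n).filter (fun k => a < (Φ k).w ∧ (Φ k).w ≤ b) =
      (range K).filter (fun k => a < (Φ k).w ∧ (Φ k).w ≤ b) := by
    ext k
    rw [Finset.mem_filter, Finset.mem_filter, Finset.mem_range, Finset.mem_range]
    constructor
    · rintro ⟨h2, h3⟩
      refine ⟨?_, h3⟩
      by_contra h4
      exact hn k h2 (by omega) h3
    · rintro ⟨h2, h3⟩
      exact ⟨by omega, h3⟩
  have h2 : (range n').filter (fun k => a < (Ψ k).w ∧ (Ψ k).w ≤ b) =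
      (range K).filter (fun k => a < (Φ k).w ∧ (Φ k).w ≤ b) := by
    ext k
    rw [Finset.mem_filter, Finset.mem_filter, Finset.mem_range, Finset.mem_range]
    constructor
    · rintro ⟨h2, h3⟩
      have h5 : k < K := by
        by_contra h4
        exact hn' k h2 (by omega) h3
      rw [hw k h5]
      exact ⟨h5, h3⟩
    · rintro ⟨h2, h3⟩
      rw [hw k h2] at h3
      exact ⟨by omega, h3⟩
  rw [h1, h2]
  refine Finset.sum_congr rfl fun k hk => ap_congr fun c hc => ?_
  rw [Finset.mem_filter, Finset.mem_range] at hk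
  exact hφ k hk.1 c hc

end Vale.Agent.P129.H570
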