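import Vale.Agent.P129.H570.Act

/-!
P129, part G (hits lemma): special sequences which hit a fixed vector of the sequence form few
classes, and each class has a representative which hits (almost) everything that is hit by the
members of the class.
-/

open Finset Filter Topology

namespace Vale.Agent.P129.H570

open Vale.Agent.P129.H448
open Vale.Agent.P129.H853 (Coded dom code)

/-- The first `n` nodes of `Φ` hit the vector `z i` through its window. -/
def Hit (z : ℕ → Vec) (a b : ℕ → ℕ) (ε : ℝ) (Φ : ℕ → Node) (n i : ℕ) : Prop :=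
  ε ≤ |act Φ n (a i) (b i) (z i)|

/-- `k` is the first node of `Φ` with weight index in the window of `i`. -/
def First (a b : ℕ → ℕ) (Φ : ℕ → Node) (n i k : ℕ) : Prop :=
  k < n ∧ a i < (Φ k).w ∧ (Φ k).w ≤ b i ∧ ∀ j < k, (Φ j).w ≤ a i

/-- windows are successive -/
structure Windows (a b : ℕ → ℕ) : Prop where
  ab : ∀ i, a i ≤ b i
  ba : ∀ i, b i ≤ a (i + 1)

theorem Windows.b_le {a b : ℕ → ℕ} (h : Windows a b) {i j : ℕ} (hij : i < j) : b i ≤ a j := by
  induction j, (show i + 1 ≤ j by omega) using Nat.le_induction with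
  | base => exact h.ba i
  | succ j hj ih => exact (ih (by omega)).trans ((h.ab j).trans (h.ba j))

theorem Windows.a_le {a b : ℕ → ℕ} (h : Windows a b) {i j : ℕ} (hij : i ≤ j) : a i ≤ a j := by
  rcases hij.eq_or_lt with rfl | h1
  · exact le_rfl
  · exact (h.ab i).trans (h.b_le h1)

/-- The estimate (C) for the window parts. -/
def CBound (z : ℕ → Vec) (a b : ℕ → ℕ) : Prop :=
  ∀ (i : ℕ) (t : Finset ℕ), t.card ≤ a i + 1 → ∀ (Φ : ℕ → ℕ → Node) (n : ℕ → ℕ),
    (∀ r ∈ t, IsSpecial K (Φ r) (n r)) →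
    (∀ r ∈ t, ∀ r' ∈ t, r ≠ r' → ∀ k < n r, ∀ k' < n r', a i < (Φ r k).w → (Φ r k).w ≤ b i →
      (Φ r k).w ≠ (Φ r' k').w) →
    ∑ r ∈ t, |act (Φ r) (n r) (a i) (b i) (z i)| ≤ 2

/-- membership in the class `v` at `i` -/
structure Cls (z : ℕ → Vec) (a b : ℕ → ℕ) (ε : ℝ) (i v : ℕ) (Φ : ℕ → Node) (n k : ℕ) : Prop where
  sp : IsSpecial K Φ n
  hit : Hit z a b ε Φ n i
  first : First a b Φ n i k
  w_eq : (Φ k).w = v

variable {z : ℕ → Vec} {a b : ℕ → ℕ} {ε : ℝ} {Φ Ψ : ℕ → Node} {n n' i k k' v : ℕ}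

theorem Hit.exists_node (h : Hit z a b ε Φ n i) (hε : 0 < ε) :
    ∃ k < n, a i < (Φ k).w ∧ (Φ k).w ≤ b i ∧ ∃ ξ ∈ (Φ k).φ.support, ξ ∈ (z i).support := by
  refine H570.exists_node fun h0 => ?_
  rw [Hit, h0, abs_zero] at h
  linarith

theorem exists_first (hs : IsSpecial K Φ n) (hk : k < n) (ha : a i < (Φ k).w)
    (hb : (Φ k).w ≤ b i) : ∃ j, First a b Φ n i j := by
  classical
  have hex : ∃ j, j < n ∧ a i < (Φ j).w ∧ (Φ j).w ≤ b i := ⟨k, hk, ha, hb⟩
  have h1 := Nat.find_spec hex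
  refine ⟨Nat.find hex, h1.1, h1.2.1, h1.2.2, fun j hj => ?_⟩
  by_contra hcon
  push Not at hcon
  have h2 := hs.cod.w_lt_w hj h1.1
  exact Nat.find_min hex hj ⟨by omega, hcon, by omega⟩

/-- Common weight indices give common weight indices at all previous positions. -/
theorem w_same (h : Coded F Φ n) (h' : Coded F Ψ n') (hk : k < n) (hk' : k' < n')
    (hw : (Φ k).w = (Ψ k').w) {j : ℕ} (hj : j ≤ k) : (Φ j).w = (Ψ j).w := by
  obtain ⟨rfl, -, h2⟩ := h.of_w_eq h' hk hk' hw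
  rcases hj.eq_or_lt with rfl | h3
  · exact hw
  · exact (h2 j h3).1

theorem Hit.exists_cls (h : Hit z a b ε Φ n i) (hε : 0 < ε) (hs : IsSpecial K Φ n) :
    ∃ v k, Cls z a b ε i v Φ n k := by
  obtain ⟨k, hk, h1, h2, -⟩ := h.exists_node hε
  obtain ⟨j, hj⟩ := exists_first hs hk h1 h2
  exact ⟨_, j, hs, h, hj, rfl⟩

/-- There are few classes. -/
theorem card_classes_lt (hC : CBound z a b) {R : ℕ} (hR : 2 < R * ε) (hRa : R ≤ a i + 1)
    (t : Finset ℕ) (ht : ∀ v ∈ t, ∃ Φ n k, Cls z a b ε i v Φ n k) : t.card < R := by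
  classical
  by_contra hcon
  push Not at hcon
  obtain ⟨t', ht't, hcard⟩ := Finset.exists_subset_card_eq hcon
  have hex : ∀ v, ∃ (Φ : ℕ → Node) (n k : ℕ), v ∈ t' → Cls z a b ε i v Φ n k := by
    intro v
    by_cases hv : v ∈ t'
    · obtain ⟨Φ, n, k, h⟩ := ht v (ht't hv)
      exact ⟨Φ, n, k, fun _ => h⟩
    · exact ⟨fun _ => ⟨0, 0, 0⟩, 0, 0, fun h => absurd h hv⟩
  choose Φ n k h using hex
  have key : ∀ r ∈ t', ∀ r' ∈ t', r ≠ r' → ∀ j < n r, ∀ j' < n r', a i < (Φ r j).w →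
      (Φ r j).w ≤ b i → (Φ r j).w ≠ (Φ r' j').w := by
    intro r hr r' hr' hne j hj j' hj' h1 h2 hw
    have c1 := h r hr
    have c2 := h r' hr'
    have hjj : j = j' := (c1.sp.cod.of_w_eq c2.sp.cod hj hj' hw).1
    subst hjj
    have k1 : k r ≤ j := by
      by_contra hlt
      push Not at hlt
      have := c1.first.2.2.2 j hlt
      omega
    have k2 : k r' ≤ j := by
      by_contra hlt
      push Not at hlt
      have := c2.first.2.2.2 j hlt
      omega
    have e1 := w_same c1.sp.cod c2.sp.cod hj hj' hw k1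
    have e2 := w_same c1.sp.cod c2.sp.cod hj hj' hw k2
    have k3 : k r' ≤ k r := by
      by_contra hlt
      push Not at hlt
      have h3 := c2.first.2.2.2 _ hlt
      have h4 := c1.first.2.1
      omega
    have k4 : k r ≤ k r' := by
      by_contra hlt
      push Not at hlt
      have h3 := c1.first.2.2.2 _ hlt
      have h4 := c2.first.2.1
      omega
    have k5 : k r = k r' := le_antisymm k4 k3
    apply hne
    rw [← c1.w_eq, ← c2.w_eq, e1, k5]
  have hsum := hC i t' (by omega) Φ n (fun r hr => (h r hr).sp) key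
  have hlow : (t'.card : ℝ) * ε ≤ ∑ r ∈ t', |act (Φ r) (n r) (a i) (b i) (z i)| := by
    rw [← nsmul_eq_mul]
    exact Finset.card_nsmul_le_sum _ _ _ fun r hr => (h r hr).hit
  rw [hcard] at hlow
  linarith

open Classical in
/-- how deep `dom` reaches into `F p l` -/
noncomputable def meas (l : W) (Φ : ℕ → Node) (k : ℕ) : ℕ :=
  ((F (Φ (k - 1)).p l).filter fun ξ => ξ ∈ dom F Φ k).card

/-- A class has a member of maximal depth. -/
theorem exists_rep (l : W) (h : ∃ Φ n k, Cls z a b ε i v Φ n k) :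
    ∃ Φ n k, Cls z a b ε i v Φ n k ∧ ∀ Φ' n' k', Cls z a b ε i v Φ' n' k' →
      meas l Φ' k' ≤ meas l Φ k := by
  classical
  obtain ⟨Φ0, n0, k0, h0⟩ := h
  let T : Set ℕ := {x | ∃ Φ n k, Cls z a b ε i v Φ n k ∧ meas l Φ k = x}
  have hT : T.Nonempty := ⟨_, Φ0, n0, k0, h0, rfl⟩
  have hB : BddAbove T := by
    refine ⟨(F (Φ0 (k0 - 1)).p l).card, ?_⟩
    rintro _ ⟨Φ, n, k, hc, rfl⟩
    have hw : (Φ k).w = (Φ0 k0).w := hc.w_eq.trans h0.w_eq.symm
    obtain ⟨rfl, -, h2⟩ := hc.sp.cod.of_w_eq h0.sp.cod hc.first.1 h0.first.1 hw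
    rcases Nat.eq_zero_or_pos k with rfl | hk
    · have : meas l Φ 0 = 0 := by
        rw [meas, dom, Finset.card_eq_zero, Finset.filter_eq_empty_iff]
        intro ξ _ h3
        exact absurd h3 (Finset.notMem_empty _)
      omega
    · have hp := (h2 (k - 1) (by omega)).2.1
      rw [meas, hp]
      exact Finset.card_filter_le _ _
  obtain ⟨Φ, n, k, hc, hm⟩ := Nat.sSup_mem hT hB
  refine ⟨Φ, n, k, hc, fun Φ' n' k' hc' => ?_⟩
  rw [hm]
  exact le_csSup hB ⟨Φ', n', k', hc', rfl⟩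

theorem p_mono (h : Coded F Φ n) {j k : ℕ} (hjk : j ≤ k) (hk : k < n) :
    (Φ j).p ≤ (Φ k).p := by
  rcases hjk.eq_or_lt with rfl | h1
  · exact le_rfl
  · exact (h k hk).p_le j h1

/-- **Key step.** The representative of the class hits everything that is hit by a member, except
possibly the last two hits before `i`. -/
theorem hit_of_rep {l : W} (hW : Windows a b) (hε : 0 < ε)
    (hs : ∀ i j, i < j → SLt (z i).support (z j).support)
    (hF : ∀ i, ∀ j < i, (z j).support ⊆ F (a i) l)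
    (hc' : Cls z a b ε i v Ψ n' k')
    (hmax : ∀ Φ n k, Cls z a b ε i v Φ n k → meas l Φ k ≤ meas l Ψ k')
    (hc : Cls z a b ε i v Φ n k) {i0 i1 i2 : ℕ} (h01 : i0 < i1) (h12 : i1 < i2) (h2 : i2 < i)
    (H0 : Hit z a b ε Φ n i0) (H1 : Hit z a b ε Φ n i1) (H2 : Hit z a b ε Φ n i2) :
    Hit z a b ε Ψ n' i0 := by
  classical
  have hw : (Φ k).w = (Ψ k').w := hc.w_eq.trans hc'.w_eq.symm
  have hmeas := hmax Φ n k hc
  obtain ⟨rfl, hcode, hprev⟩ := hc.sp.cod.of_w_eq hc'.sp.cod hc.first.1 hc'.first.1 hw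
  have hkn := hc.first.1
  have hkn' := hc'.first.1
  -- the node hitting `z i2`
  obtain ⟨j2, hj2n, ha2, hb2, -⟩ := H2.exists_node hε
  have hb2a : b i2 ≤ a i := hW.b_le h2
  have hj2k : j2 < k := by
    by_contra hcon
    push Not at hcon
    have h3 := hc.first.2.1
    rcases hcon.eq_or_lt with rfl | h4
    · omega
    · have := hc.sp.cod.w_lt_w h4 hj2n
      omega
  obtain ⟨q, rfl⟩ : ∃ q, k = q + 1 := ⟨k - 1, by omega⟩
  have hp : a i2 ≤ (Φ q).p := by
    have h3 := (hc.sp.cod j2 hj2n).w_le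
    have h4 := p_mono hc.sp.cod (show j2 ≤ q by omega) (by omega)
    omega
  have hpp : (Φ q).p = (Ψ q).p := (hprev q (by omega)).2.1
  -- the node hitting `z i1`
  obtain ⟨j1, hj1n, ha1, hb1, ξ, hξ, hξz⟩ := H1.exists_node hε
  have hb1a : b i1 ≤ a i2 := hW.b_le h12
  have hj1k : j1 < q + 1 := by
    by_contra hcon
    push Not at hcon
    have h3 := hc.sp.cod.w_lt_w (lt_of_lt_of_le hj2k hcon) hj1n
    omega
  have hξD : ξ ∈ dom F Φ (q + 1) := hc.sp.cod.mem_dom (by omega) hj1k hξ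
  have hξF : ξ ∈ F (Φ q).p l := F_coherent.mem_mono (hF i2 i1 h12 hξz) hp
  -- `ξ` lies in the set of the representative
  have hξD' : ξ ∈ dom F Ψ (q + 1) := by
    by_contra hcon
    have hsub : ((F (Ψ q).p l).filter fun ξ => ξ ∈ dom F Ψ (q + 1)) ⊂
        ((F (Φ q).p l).filter fun ξ => ξ ∈ dom F Φ (q + 1)) := by
      rw [Finset.ssubset_iff_of_subset]
      · exact ⟨ξ, Finset.mem_filter.2 ⟨hξF, hξD⟩, fun h => hcon (Finset.mem_filter.1 h).2⟩
      · intro η hη
        obtain ⟨hη1, hη2⟩ := Finset.mem_filter.1 hη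
        rw [← hpp] at hη1
        refine Finset.mem_filter.2 ⟨hη1, ?_⟩
        rcases le_total ξ η with h3 | h3
        · exfalso
          refine hcon (H853.dom_closed F_coherent hη2 ?_)
          rw [← hpp]
          exact F_coherent.mem_of_le hη1 hξF h3
        · exact H853.dom_closed F_coherent hξD (F_coherent.mem_of_le hξF hη1 h3)
    have hlt := Finset.card_lt_card hsub
    have e1 : meas l Ψ (q + 1) = ((F (Ψ q).p l).filter fun ξ => ξ ∈ dom F Ψ (q + 1)).card := by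
      rw [meas]
      simp only [Nat.add_sub_cancel]
    have e2 : meas l Φ (q + 1) = ((F (Φ q).p l).filter fun ξ => ξ ∈ dom F Φ (q + 1)).card := by
      rw [meas]
      simp only [Nat.add_sub_cancel]
    rw [e1, e2] at hmeas
    omega
  have hag := hc.sp.cod.agree F_coherent hc'.sp.cod hkn.le hkn'.le hcode hξD hξD'
  have hval : act Φ n (a i0) (b i0) (z i0) = act Ψ n' (a i0) (b i0) (z i0) := by
    have hb0 : b i0 ≤ a i := hW.b_le (by omega)
    refine act_congr (K := q + 1) hkn.le hkn'.le ?_ ?_ ?_ ?_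
    · intro j hj hqj hwin
      have h3 := hc.first.2.1
      rcases hqj.eq_or_lt with rfl | h4
      · omega
      · have := hc.sp.cod.w_lt_w h4 hj
        omega
    · intro j hj hqj hwin
      have h3 := hc'.first.2.1
      rcases hqj.eq_or_lt with rfl | h4
      · omega
      · have := hc'.sp.cod.w_lt_w h4 hj
        omega
    · intro j hj
      exact (hprev j hj).1
    · intro j hj c hc0
      exact hag j hj c (hs i0 i1 h01 c hc0 ξ hξz).le
  rw [Hit, ← hval]
  exact H0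

/-- Representatives of the classes. -/
theorem exists_family {l : W} (hW : Windows a b) (hε : 0 < ε)
    (hs : ∀ i j, i < j → SLt (z i).support (z j).support)
    (hF : ∀ i, ∀ j < i, (z j).support ⊆ F (a i) l)
    (hC : CBound z a b) {R : ℕ} (hR : 2 < R * ε) :
    ∃ (Ψ : ℕ → ℕ → ℕ → Node) (N : ℕ → ℕ → ℕ), (∀ i r, IsSpecial K (Ψ i r) (N i r)) ∧
      ∀ i, R ≤ a i + 1 → ∀ Φ n, IsSpecial K Φ n → Hit z a b ε Φ n i →
        ∃ r < R, ∀ i0 i1 i2, i0 < i1 → i1 < i2 → i2 < i → Hit z a b ε Φ n i0 →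
          Hit z a b ε Φ n i1 → Hit z a b ε Φ n i2 → Hit z a b ε (Ψ i r) (N i r) i0 := by
  classical
  have hsp0 : IsSpecial K (fun _ => (⟨0, 0, 0⟩ : Node)) 0 :=
    ⟨fun j hj => absurd hj (Nat.not_lt_zero j), fun k hk => absurd hk (Nat.not_lt_zero k)⟩
  have step : ∀ i, ∃ (Ψ : ℕ → ℕ → Node) (N : ℕ → ℕ), (∀ r, IsSpecial K (Ψ r) (N r)) ∧
      (R ≤ a i + 1 → ∀ Φ n, IsSpecial K Φ n → Hit z a b ε Φ n i →
        ∃ r < R, ∀ i0 i1 i2, i0 < i1 → i1 < i2 → i2 < i → Hit z a b ε Φ n i0 →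
          Hit z a b ε Φ n i1 → Hit z a b ε Φ n i2 → Hit z a b ε (Ψ r) (N r) i0) := by
    intro i
    by_cases hRa : R ≤ a i + 1
    swap
    · exact ⟨fun _ _ => ⟨0, 0, 0⟩, fun _ => 0, fun _ => hsp0, fun h => absurd h hRa⟩
    let V : Finset ℕ := (Finset.Ioc (a i) (b i)).filter fun v => ∃ Φ n k, Cls z a b ε i v Φ n k
    have hV : ∀ v, v ∈ V ↔ ∃ Φ n k, Cls z a b ε i v Φ n k := by
      intro v
      constructor
      · intro h
        exact (Finset.mem_filter.1 h).2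
      · rintro ⟨Φ, n, k, h⟩
        refine Finset.mem_filter.2 ⟨?_, Φ, n, k, h⟩
        rw [Finset.mem_Ioc, ← h.w_eq]
        exact ⟨h.first.2.1, h.first.2.2.1⟩
    have hcard : V.card < R := card_classes_lt hC hR hRa V fun v hv => (hV v).1 hv
    have hrep : ∀ r, ∃ (Ψ : ℕ → Node) (N : ℕ), IsSpecial K Ψ N ∧ ∀ (hr : r < V.toList.length),
        ∃ k, Cls z a b ε i (V.toList[r]) Ψ N k ∧ ∀ Φ' n' k',
          Cls z a b ε i (V.toList[r]) Φ' n' k' → meas l Φ' k' ≤ meas l Ψ k := by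
      intro r
      by_cases hr : r < V.toList.length
      · have hmem : V.toList[r] ∈ V := by
          rw [← Finset.mem_toList]
          exact List.getElem_mem hr
        obtain ⟨Ψ, N, k, h1, h2⟩ := exists_rep l ((hV _).1 hmem)
        exact ⟨Ψ, N, h1.sp, fun _ => ⟨k, h1, h2⟩⟩
      · exact ⟨fun _ => ⟨0, 0, 0⟩, 0, hsp0, fun h => absurd h hr⟩
    choose Ψ N hsp hrep using hrep
    refine ⟨Ψ, N, hsp, fun _ Φ n hΦ hit => ?_⟩
    obtain ⟨v, k, hc⟩ := hit.exists_cls hε hΦ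
    have hv : v ∈ V := (hV v).2 ⟨Φ, n, k, hc⟩
    rw [← Finset.mem_toList] at hv
    obtain ⟨r, hr, rfl⟩ := List.mem_iff_getElem.1 hv
    obtain ⟨k', hc', hmax⟩ := hrep r hr
    refine ⟨r, ?_, fun i0 i1 i2 h01 h12 h2 H0 H1 H2 => ?_⟩
    · rw [Finset.length_toList] at hr
      omega
    · exact hit_of_rep hW hε hs hF hc' hmax hc h01 h12 h2 H0 H1 H2
  choose Ψ N h1 h2 using step
  exact ⟨Ψ, N, h1, h2⟩

end Vale.Agent.P129.H570
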